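import Vale.Agent.P207.N4.Dim
import Vale.Agent.P207.N7.H58.Pic

/-!
# P207, line N7: the holonomy between two leaves, at infinity
-/

open Set Filter Topology Metric MeasureTheory
open scoped ContDiff

noncomputable section

namespace Vale.Agent.P207.N4.Y

open Vale.Agent.P207.N3

variable [Dim]

variable {Γ X B : Type} [Group Γ] [MetricSpace X] [ProperSpace X] [MulAction Γ X]
  [IsIsometricSMul Γ X] [TopologicalSpace B] [CompactSpace B] [T2Space B] [MulAction Γ B]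
  [ContinuousConstSMul Γ B]

namespace Aff

variable {L : Leaf Γ X B} (F : Aff L)

theorem ptx_cont (x : X) : Continuous (F.pt x) :=
  F.pt_cont.comp (by fun_prop : Continuous fun q : E2 => ((x, q) : X × E2))

theorem chx_cont (x : X) : ContinuousOn (F.ch x) {η | η ≠ L.em x} :=
  F.ch_cont.comp (f := fun η : B => ((x, η) : X × B)) (by fun_prop) (fun η hη => hη)

/-- at infinity the affine chart tends to the end point in the past -/
theorem pt_tendsto (x : X) : Tendsto (F.pt x) (cocompact E2) (𝓝 (L.em x)) := by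
  rw [tendsto_def]
  intro s hs
  obtain ⟨U, hUs, hU, hxU⟩ := mem_nhds_iff.1 hs
  rw [mem_cocompact]
  have hK : IsCompact (F.ch x '' Uᶜ) := by
    refine (hU.isClosed_compl.isCompact).image_of_continuousOn ((F.chx_cont x).mono ?_)
    intro η hη h
    exact hη (h ▸ hxU)
  refine ⟨_, hK, fun q hq => ?_⟩
  by_contra h
  refine hq ⟨F.pt x q, fun h' => h (hUs h'), F.ch_pt x q⟩

include F in
/-- there is a third boundary point -/
theorem exists_third [Nontrivial E2] (x : X) : ∃ ξ : B, ξ ≠ L.em x ∧ ξ ≠ L.ep x := by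
  obtain ⟨q, hq⟩ := exists_ne (0 : E2)
  refine ⟨F.pt x q, F.pt_ne x q, fun h => hq ?_⟩
  rw [← F.pt_zero x] at h
  rw [← F.ch_pt x q, h, F.ch_pt]

end Aff

namespace Pic

variable {L : Leaf Γ X B} [MeasurableSpace B] [BorelSpace B] {V : Type}
  [NormedAddCommGroup V] [NormedSpace ℝ V] [FiniteDimensional ℝ V] (P : Pic L V)

theorem hh_tendsto {x : X} {ξ : B} (h1 : ξ ≠ L.em x) (h2 : ξ ≠ L.ep x) :
    Tendsto (P.hh x ξ) (cocompact E2) (𝓝 (P.Af.ch (L.hol ξ x) (L.em x))) := by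
  have h3 : L.em x ≠ L.em (L.hol ξ x) := by
    rw [L.hol_em ξ x h2]
    exact h1.symm
  have h4 : ContinuousAt (P.Af.ch (L.hol ξ x)) (L.em x) :=
    (P.Af.chx_cont (L.hol ξ x)).continuousAt (isOpen_ne.mem_nhds h3)
  exact h4.tendsto.comp (P.Af.pt_tendsto x)

theorem hh_ne {x : X} {ξ : B} (h1 : ξ ≠ L.em x) (h2 : ξ ≠ L.ep x) {q : E2}
    (hq : P.Af.pt x q ≠ ξ) : P.hh x ξ q ≠ P.Af.ch (L.hol ξ x) (L.em x) := by
  intro h
  have h3 : L.em x ≠ L.em (L.hol ξ x) := by
    rw [L.hol_em ξ x h2]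
    exact h1.symm
  have h4 : P.Af.pt x q ≠ L.em (L.hol ξ x) := by
    rw [L.hol_em ξ x h2]
    exact hq
  have h5 := congrArg (P.Af.pt (L.hol ξ x)) h
  rw [P.Af.pt_ch _ _ h3] at h5
  have h6 : P.Af.pt (L.hol ξ x) (P.hh x ξ q) = P.Af.pt x q := P.Af.pt_ch _ _ h4
  rw [h6] at h5
  exact P.Af.pt_ne x q h5

theorem pt_ne_iff {x : X} {ξ : B} (h1 : ξ ≠ L.em x) {q : E2} :
    P.Af.pt x q ≠ ξ ↔ q ≠ P.Af.ch x ξ := by
  constructor
  · rintro h rfl
    exact h (P.Af.pt_ch x ξ h1)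
  · rintro h rfl
    exact h (P.Af.ch_pt x q).symm

end Pic

end Vale.Agent.P207.N4.Y
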