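import Vale.Agent.P207.N4.Dim
import Vale.Agent.P207.N7.H58.Pic
import Vale.Agent.P207.N7.H467.Alt

/-!
# P207, line N7: steps 1-7
-/

namespace Vale.Agent.P207.N4.Y

open Vale.Agent.P207.N3

variable [Dim]

variable {Γ X B : Type} [Group Γ] [MetricSpace X] [ProperSpace X] [MulAction Γ X]
  [IsIsometricSMul Γ X] [TopologicalSpace B] [CompactSpace B] [T2Space B] [MulAction Γ B]
  [ContinuousConstSMul Γ B] {L : Leaf Γ X B} [MeasurableSpace B] [BorelSpace B] {V : Type}
  [NormedAddCommGroup V] [NormedSpace ℝ V] [FiniteDimensional ℝ V]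

/-- **steps 1-7**: the dichotomy, the product formula and the smooth alternative -/
theorem Pic.steps17 (P : Pic L V) (hD : P.Dich) (hP : P.Prod) : SmoothAlt P.S.T :=
  H467.alt P (hD.resolve_right hP)

end Vale.Agent.P207.N4.Y
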